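import Mathlib

open Finset

namespace Vale.Agent.Lib.P208

/-- The subset `X` of a metric space is doubling with constant at most `N`: every (closed) ball
of `X` is covered by at most `N` (closed) balls of half its radius with centers in `X`. -/
def DoublingWith {E : Type*} [PseudoMetricSpace E] (X : Set E) (N : ℕ) : Prop :=
  ∀ x ∈ X, ∀ r : ℝ, 0 < r → ∃ C : Finset E, (↑C ⊆ X) ∧ C.card ≤ N ∧
    X ∩ Metric.closedBall x r ⊆ ⋃ c ∈ C, Metric.closedBall c (r / 2)

/-- `X` admits a bi-Lipschitz embedding into `ℝ^k` with distortion at most `D`. -/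
def BiLipEmbedsWith {E : Type*} [PseudoMetricSpace E] (X : Set E) (k : ℕ) (D : ℝ) : Prop :=
  ∃ (f : E → EuclideanSpace ℝ (Fin k)) (a : ℝ), 0 < a ∧ ∀ x ∈ X, ∀ y ∈ X,
    a * dist x y ≤ dist (f x) (f y) ∧ dist (f x) (f y) ≤ D * a * dist x y

theorem DoublingWith.iterate {E : Type*} [PseudoMetricSpace E] {X : Set E} {N : ℕ}
    (h : DoublingWith X N) (j : ℕ) : ∀ x ∈ X, ∀ r : ℝ, 0 < r → ∃ C : Finset E, (↑C ⊆ X) ∧
      C.card ≤ N ^ j ∧ X ∩ Metric.closedBall x r ⊆ ⋃ c ∈ C, Metric.closedBall c (r / 2 ^ j) := by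
  classical
  induction j with
  | zero =>
    intro x hx r _
    refine ⟨{x}, by simpa using hx, by simp, ?_⟩
    intro y hy
    simpa using hy.2
  | succ j ih =>
    intro x hx r hr
    obtain ⟨C, hCX, hCcard, hCcov⟩ := ih x hx r hr
    have hr' : 0 < r / 2 ^ j := by positivity
    have hch : ∀ c : E, ∃ C' : Finset E, c ∈ X → ((↑C' ⊆ X) ∧ C'.card ≤ N ∧
        X ∩ Metric.closedBall c (r / 2 ^ j) ⊆ ⋃ c' ∈ C', Metric.closedBall c' (r / 2 ^ j / 2)) := by
      intro c
      by_cases hc : c ∈ X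
      · obtain ⟨C', h1, h2, h3⟩ := h c hc _ hr'
        exact ⟨C', fun _ => ⟨h1, h2, h3⟩⟩
      · exact ⟨∅, fun hc' => absurd hc' hc⟩
    choose C' hC' using hch
    refine ⟨C.biUnion C', ?_, ?_, ?_⟩
    · intro y hy
      rw [mem_coe, mem_biUnion] at hy
      obtain ⟨c, hc, hy⟩ := hy
      exact (hC' c (hCX hc)).1 hy
    · calc (C.biUnion C').card ≤ ∑ c ∈ C, (C' c).card := card_biUnion_le
        _ ≤ ∑ c ∈ C, N := sum_le_sum (fun c hc => (hC' c (hCX hc)).2.1)
        _ = C.card * N := by rw [sum_const, smul_eq_mul]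
        _ ≤ N ^ j * N := Nat.mul_le_mul_right _ hCcard
        _ = N ^ (j + 1) := (pow_succ _ _).symm
    · intro y hy
      have h1 := hCcov hy
      simp only [Set.mem_iUnion, exists_prop] at h1
      obtain ⟨c, hc, hyc⟩ := h1
      have h2 := (hC' c (hCX hc)).2.2 ⟨hy.1, hyc⟩
      simp only [Set.mem_iUnion, exists_prop] at h2 ⊢
      obtain ⟨c', hc', hyc'⟩ := h2
      refine ⟨c', mem_biUnion.mpr ⟨c, hc, hc'⟩, ?_⟩
      have e : r / 2 ^ (j + 1) = r / 2 ^ j / 2 := by rw [pow_succ]; field_simp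
      rw [e]
      exact hyc'

/-- a separated finite subset of a ball of a doubling set is small -/
theorem DoublingWith.card_le_of_separated {E : Type*} [PseudoMetricSpace E] {X : Set E} {N : ℕ}
    (h : DoublingWith X N) (j : ℕ) (x : E) (hx : x ∈ X) (r : ℝ) (hr : 0 < r) (Y : Finset E)
    (hYX : ↑Y ⊆ X) (hYball : ∀ y ∈ Y, dist y x ≤ r)
    (hsep : ∀ y ∈ Y, ∀ y' ∈ Y, y ≠ y' → 2 * (r / 2 ^ j) < dist y y') : Y.card ≤ N ^ j := by
  classical
  obtain ⟨C, _, hCcard, hCcov⟩ := h.iterate j x hx r hr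
  have hch : ∀ y ∈ Y, ∃ c ∈ C, dist y c ≤ r / 2 ^ j := by
    intro y hy
    have := hCcov ⟨hYX hy, Metric.mem_closedBall.mpr (hYball y hy)⟩
    simpa only [Set.mem_iUnion, exists_prop, Metric.mem_closedBall] using this
  choose! φ hφ using hch
  refine le_trans ?_ hCcard
  apply card_le_card_of_injOn φ (fun y hy => (hφ y hy).1)
  intro y hy y' hy' heq
  by_contra hne
  have h1 := hsep y hy y' hy' hne
  have h2 := (hφ y hy).2
  have h3 := (hφ y' hy').2
  rw [← heq] at h3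
  have h4 : dist y y' ≤ dist y (φ y) + dist y' (φ y) := dist_triangle_right _ _ _
  linarith

end Vale.Agent.Lib.P208
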